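import Vale.Agent.P091.AD.Base
import Vale.Agent.P091.AD.H921.Ruz
import Vale.Agent.P091.AD.H356.Prod

/-!
# P091, AD-8 (helper468), part c: fibres, products, Markov
-/

set_option autoImplicit false

open Finset Real
open Vale.Agent.P065.Ent

noncomputable section

namespace Vale.Agent.P091.AD.H468

open Vale.Agent.P091.AD.H356

section fib
variable {Ω α β γ δ G : Type*} [Fintype Ω] {μ : Ω → ℝ}

/-- a weighted sum over the two copies given `Y` -/
theorem sum_ccp (Y : Ω → γ) (f : Ω × Ω → ℝ) :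
    ∑ p : CC Y, ccp μ Y p * f p.1
      = ∑ a, ∑ b, (open Classical in if Y a = Y b then μ a * μ b / Pr μ Y (Y a) * f (a, b)
          else 0) := by
  classical
  have h := sum_CC Y (fun p : Ω × Ω => μ p.1 * μ p.2 / Pr μ Y (Y p.1) * f p)
  have h' : ∑ p : CC Y, ccp μ Y p * f p.1 =
      ∑ p : CC Y, (fun p : Ω × Ω => μ p.1 * μ p.2 / Pr μ Y (Y p.1) * f p) p.1 := rfl
  rw [h', h]

/-- conditionally on `Y = y`, the two copies are independent with the law `cnd μ Y y` -/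
theorem Pr_cnd_ccp (Y : Ω → γ) (hμ : IsProb μ) {y : γ} (hy : 0 < Pr μ Y y)
    (f : Ω × Ω → α) (x : α) :
    Pr (cnd (ccp μ Y) (fun p => Y p.1.1) y) (fun p => f p.1) x
      = Pr (px (cnd μ Y y) (cnd μ Y y)) f x := by
  classical
  rw [Pr_cnd, Pr_cc_fst hμ Y Y]
  have e1 : Pr (ccp μ Y) (fun p => (f p.1, Y p.1.1)) (x, y)
      = ∑ p : CC Y, ccp μ Y p * (if (f p.1, Y p.1.1) = (x, y) then 1 else 0) := by
    unfold Pr
    refine sum_congr rfl fun p _ => ?_
    by_cases hp : (f p.1, Y p.1.1) = (x, y)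
    · rw [if_pos hp, if_pos hp, mul_one]
    · rw [if_neg hp, if_neg hp, mul_zero]
  rw [e1, sum_ccp Y (fun p => if (f p, Y p.1) = (x, y) then 1 else 0)]
  unfold Pr
  rw [Fintype.sum_prod_type, sum_div]
  refine sum_congr rfl fun a _ => ?_
  rw [sum_div]
  refine sum_congr rfl fun b _ => ?_
  unfold px cnd
  have hy' : Pr μ Y y ≠ 0 := hy.ne'
  by_cases h1 : Y a = y
  · by_cases h2 : Y b = y
    · by_cases h3 : f (a, b) = x
      · simp only [h1, h2, h3, if_true, mul_one]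
        change μ a * μ b / Pr μ Y y / Pr μ Y y = _
        field_simp
      · simp only [h1, h2, h3, Prod.mk.injEq, false_and, if_false, if_true, mul_zero, zero_div]
    · have h2' : ¬ y = Y b := fun e => h2 e.symm
      simp only [h1, h2, h2', if_false, if_true, mul_zero, zero_div, ite_self]
  · simp only [h1, Prod.mk.injEq, and_false, if_false, mul_zero, ite_self, zero_div, zero_mul]

theorem H_cnd_ccp (Y : Ω → γ) (hμ : IsProb μ) {y : γ} (hy : 0 < Pr μ Y y) (f : Ω × Ω → α) :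
    H (cnd (ccp μ Y) (fun p => Y p.1.1) y) (fun p => f p.1)
      = H (px (cnd μ Y y) (cnd μ Y y)) f := by
  have hy2 : 0 < Pr (ccp μ Y) (fun p => Y p.1.1) y := by rwa [Pr_cc_fst hμ Y Y]
  exact H_eq_of_law (Pr_cnd_ccp Y hμ hy f)

/-- **fibre formula for two copies** -/
theorem Hc_ccp_fiber [DecidableEq γ] (hμ : IsProb μ) (Y : Ω → γ) (f : Ω × Ω → α) :
    Hc (ccp μ Y) (fun p => f p.1) (fun p => Y p.1.1)
      = ∑ y ∈ univ.image Y, Pr μ Y y * H (px (cnd μ Y y) (cnd μ Y y)) f := by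
  classical
  rw [Hc_fiber (ccp_isProb hμ Y)]
  have e : univ.image (fun p : CC Y => Y p.1.1) = univ.image Y := by
    ext y
    simp only [mem_image, mem_univ, true_and]
    constructor
    · rintro ⟨p, hp⟩
      exact ⟨p.1.1, hp⟩
    · rintro ⟨ω, hω⟩
      exact ⟨⟨(ω, ω), rfl⟩, hω⟩
  rw [e]
  refine sum_congr rfl fun y _ => ?_
  rw [Pr_cc_fst hμ Y Y]
  rcases (Pr_nonneg hμ Y y).eq_or_lt with h0 | h0
  · rw [← h0, zero_mul, zero_mul]
  · rw [H_cnd_ccp Y hμ h0]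

/-- the entropy of a sum of two independent copies -/
theorem H_le_px_add [AddCommGroup G] (hμ : IsProb μ) (A : Ω → G) :
    H μ A ≤ H (px μ μ) (fun v => A v.1 + A v.2) := by
  have hp := px_isProb hμ hμ
  have h1 : Hc (px μ μ) (fun v => A v.1) (fun v => ((), A v.2)) = Hc μ A (fun _ => ()) :=
    Hc_px_left hμ hμ A (fun _ => ()) A
  rw [Hc_const hμ] at h1
  rw [← h1]
  have h2 : Hc (px μ μ) (fun v => A v.1) (fun v => ((), A v.2))
      = Hc (px μ μ) (fun v => A v.1 + A v.2) (fun v => A v.2) := by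
    unfold Hc
    have e1 : H (px μ μ) (fun v : Ω × Ω => ((), A v.2)) = H (px μ μ) (fun v => A v.2) :=
      H_congr (det_snd _ _) ((det_const _ _).pair (Det.refl _))
    rw [e1]
    congr 1
    refine H_congr ?_ ?_
    · intro a b e
      simp only [Prod.mk.injEq] at e ⊢
      exact ⟨by rw [e.1, e.2.2], e.2.2⟩
    · intro a b e
      simp only [Prod.mk.injEq] at e ⊢
      refine ⟨?_, trivial, e.2⟩
      have := e.1
      rw [e.2] at this
      exact add_right_cancel this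
  rw [h2]
  exact Hc_le_H hp _ _

end fib

section dv
variable {Ω X γ : Type*} [Fintype Ω] [Fintype X] {Q : Ω → ℝ} {b : X → ℝ}

theorem Dv_eq (hQ : IsProb Q) (ξ : Ω → X) (hac : ∀ ω, 0 < Q ω → 0 < b (ξ ω)) :
    Dv Q ξ b = ∑ ω, Q ω * (- log (b (ξ ω))) - H Q ξ := by
  unfold Dv H
  rw [← sum_sub_distrib]
  refine sum_congr rfl fun ω _ => ?_
  rcases (hQ.nonneg ω).eq_or_lt with h0 | h0
  · rw [← h0]; ring
  · rw [log_div (Pr_pos hQ ξ h0).ne' (hac ω h0).ne']
    ring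

theorem Dv_nonneg (hQ : IsProb Q) (hb : IsProb b) (ξ : Ω → X)
    (hac : ∀ ω, 0 < Q ω → 0 < b (ξ ω)) : 0 ≤ Dv Q ξ b := by
  classical
  rw [Dv_eq hQ ξ hac, sub_nonneg]
  have h := gibbs hQ ξ (fun _ => ()) (fun _ x => b x) hac (fun _ x _ => hb.nonneg x) (fun _ => ?_)
  · rw [Hc_const hQ] at h
    exact h
  · rw [← hb.sum]
    exact sum_le_sum_of_subset_of_nonneg (subset_univ _) fun x _ _ => hb.nonneg x

theorem cnd_pos_Q (hQ : IsProb Q) (Y : Ω → γ) (y : γ) {ω : Ω} (h : 0 < cnd Q Y y ω) :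
    0 < Q ω := by
  classical
  rcases (hQ.nonneg ω).eq_or_lt with h0 | h0
  · exfalso
    unfold cnd at h
    rw [← h0] at h
    simp at h
  · exact h0

/-- the mean divergence of the fibres -/
theorem Dv_fiber [DecidableEq γ] (hQ : IsProb Q) (ξ : Ω → X)
    (hac : ∀ ω, 0 < Q ω → 0 < b (ξ ω)) (Y : Ω → γ) :
    ∑ y ∈ univ.image Y, Pr Q Y y * Dv (cnd Q Y y) ξ b = Dv Q ξ b + (H Q ξ - Hc Q ξ Y) := by
  classical
  have h1 : ∀ y ∈ univ.image Y, Pr Q Y y * Dv (cnd Q Y y) ξ b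
      = Pr Q Y y * ∑ ω, cnd Q Y y ω * (- log (b (ξ ω))) - Pr Q Y y * H (cnd Q Y y) ξ := by
    intro y _
    rcases (Pr_nonneg hQ Y y).eq_or_lt with h0 | h0
    · rw [← h0]; ring
    · rw [Dv_eq (cnd_isProb hQ h0) ξ fun ω h => hac ω (cnd_pos_Q hQ Y y h)]
      ring
  rw [sum_congr rfl h1, sum_sub_distrib, ← Hc_fiber hQ ξ Y,
    ← sum_cnd_fiber hQ Y (fun _ ω => - log (b (ξ ω))), Dv_eq hQ ξ hac]
  ring

end dv

/-- **Markov** for finitely many functions -/
theorem markov {J Λ : Type*} (s : Finset J) (t : Finset Λ) (w : J → ℝ) (hw : ∀ i ∈ s, 0 ≤ w i)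
    (hw1 : ∑ i ∈ s, w i = 1) (a : Λ → J → ℝ) (m lam : Λ → ℝ)
    (ha : ∀ l ∈ t, ∀ i ∈ s, 0 < w i → 0 ≤ a l i) (hm : ∀ l ∈ t, ∑ i ∈ s, w i * a l i ≤ m l)
    (hl : ∀ l ∈ t, 0 < lam l) (hlam : ∑ l ∈ t, (lam l)⁻¹ < 1) :
    ∃ i ∈ s, 0 < w i ∧ ∀ l ∈ t, a l i ≤ lam l * m l := by
  by_contra hcon
  push Not at hcon
  have hwa : ∀ l ∈ t, ∀ i ∈ s, 0 ≤ w i * a l i := by
    intro l hlt i hi
    rcases (hw i hi).eq_or_lt with h0 | h0
    · rw [← h0, zero_mul]
    · exact mul_nonneg h0.le (ha l hlt i hi h0)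
  have hm0 : ∀ l ∈ t, 0 ≤ m l := fun l hlt => (sum_nonneg (hwa l hlt)).trans (hm l hlt)
  -- pointwise
  have h1 : ∀ i ∈ s, w i ≤ ∑ l ∈ t, w i * a l i / (lam l * m l) := by
    intro i hi
    rcases (hw i hi).eq_or_lt with h0 | h0
    · rw [← h0]
      refine sum_nonneg fun l _ => ?_
      rw [zero_mul, zero_div]
    · obtain ⟨l, hlt, hgt⟩ := hcon i hi h0
      have hlm : 0 ≤ lam l * m l := mul_nonneg (hl l hlt).le (hm0 l hlt)
      have hpos : 0 < m l := by
        refine (hm0 l hlt).lt_of_ne fun h => ?_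
        have h2 := single_le_sum (f := fun i => w i * a l i) (hwa l hlt) hi
        have h3 := h2.trans (hm l hlt)
        rw [← h] at h3 hgt
        rw [mul_zero] at hgt
        have := mul_pos h0 hgt
        linarith
      have hlm' : 0 < lam l * m l := mul_pos (hl l hlt) hpos
      have h2 : w i ≤ w i * a l i / (lam l * m l) := by
        rw [le_div_iff₀ hlm']
        exact mul_le_mul_of_nonneg_left hgt.le h0.le
      refine h2.trans (single_le_sum (f := fun l => w i * a l i / (lam l * m l)) ?_ hlt)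
      intro l' hl'
      exact div_nonneg (hwa l' hl' i hi) (mul_nonneg (hl l' hl').le (hm0 l' hl'))
  have h2 := sum_le_sum h1
  rw [hw1, sum_comm] at h2
  have h3 : ∀ l ∈ t, ∑ i ∈ s, w i * a l i / (lam l * m l) ≤ (lam l)⁻¹ := by
    intro l hlt
    rw [← sum_div]
    rcases (hm0 l hlt).eq_or_lt with h0 | h0
    · rw [← h0, mul_zero, div_zero]
      exact (inv_pos.mpr (hl l hlt)).le
    · have hlm' : 0 < lam l * m l := mul_pos (hl l hlt) h0
      rw [div_le_iff₀ hlm']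
      have : (lam l)⁻¹ * (lam l * m l) = m l := by
        rw [← mul_assoc, inv_mul_cancel₀ (hl l hlt).ne', one_mul]
      rw [this]
      exact hm l hlt
  have h4 := sum_le_sum h3
  linarith

end Vale.Agent.P091.AD.H468
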