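import Vale.Agent.P091.AD.H468.Blk
import Vale.Agent.P091.AD.H468.Fib

/-!
# P091, AD-8 (helper468), part d: LocExtract
-/

set_option autoImplicit false

open Finset Real
open Vale.Agent.P065.Ent

noncomputable section

namespace Vale.Agent.P091.AD.H468

open Vale.Agent.P091.AD.H356

section avg

variable {ι L Z Γ : Type*} [Fintype ι] [DecidableEq ι] [Fintype L] [AddCommGroup Γ]
  {Q : (ι → L) → ℝ} {N : L → Γ} {zl : L → Z} {τ : ℝ} {k : ℕ}

/-- the variable on which we condition: `(T_j + V_j, labels)` -/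
def Blk.Y (S : Blk ι k) (N : L → Γ) (zl : L → Z) (j : ℕ) (u : ι → L) : Γ × (ι → Option Z) :=
  (S.T N j u + S.V N j u, S.lab zl j u)

theorem Blk.det_Y (S : Blk ι k) (N : L → Γ) (zl : L → Z) (j : ℕ) :
    Det (XW (S.F j)) (S.Y N zl j) := by
  intro a b e
  unfold Blk.Y
  rw [S.det_T N j a b e, S.det_V N j a b e, S.det_lab zl j a b e]

/-- average of the entropy of `T_j` -/
theorem Blk.avg_T (S : Blk ι k) (hQ : IsProb Q) (hE : Exch Q) (hτ : TC Q ≤ τ) {h2 : ℝ}
    (H2 : ∀ W : Finset ι, W.card = 2 * k → hW Q N zl W = h2) {j : ℕ} (hj : j ≤ k) :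
    Hc Q (S.T N j) (S.Y N zl j) ≤ h2 + τ :=
  (Hc_anti hQ _ (det_snd _ _)).trans (S.T_le hQ hE hτ H2 hj)

/-- average of the doubling -/
theorem Blk.avg_dbl (S : Blk ι k) (hQ : IsProb Q) (hE : Exch Q) (hτ : TC Q ≤ τ) {h1 h2 : ℝ}
    (H1 : ∀ W : Finset ι, W.card = k → hW Q N zl W = h1)
    (H2 : ∀ W : Finset ι, W.card = 2 * k → hW Q N zl W = h2) {j : ℕ} (hj : j ≤ k) :
    Hc (ccp Q (S.Y N zl j)) (fun p => S.T N j p.1.1 + S.T N j p.1.2)
        (fun p => S.Y N zl j p.1.1) - Hc Q (S.T N j) (S.Y N zl j)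
      ≤ 8 * (h2 - h1) + 14 * τ := by
  have h := bsg hQ (S.T N j) (S.V N j) (S.lab zl j)
  have e := I_eq_add Q (S.T N j) (S.V N j) (S.lab zl j)
  have a1 := S.T_le (N := N) (zl := zl) hQ hE hτ H2 hj
  have a2 := S.V_le (N := N) (zl := zl) hQ hE hτ H1 H2 hj
  have a3 := S.S_le (N := N) (zl := zl) hQ H2 j
  have a4 := S.G_ge (N := N) (zl := zl) hQ hτ H1 hj
  unfold Blk.G at a4
  rw [e] at h
  unfold Blk.Y
  linarith

end avg

theorem I_unit_le {Ω α β γ δ : Type*} [Fintype Ω] {Q : Ω → ℝ} (hQ : IsProb Q) {X : Ω → α}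
    {T : Ω → β} {Y : Ω → γ} {F : Ω → δ} (h1 : Det F T) (h2 : Det F Y) :
    I Q X T (fun ω => ((), Y ω)) ≤ H Q X - Hc Q X F := by
  unfold I
  have a1 := Hc_le_H hQ X (fun ω => ((), Y ω))
  have a2 : Hc Q X F ≤ Hc Q X (fun ω => (T ω, ((), Y ω))) :=
    Hc_anti hQ X (h1.pair ((det_const _ _).pair h2))
  linarith

theorem pos_of_pw {ι L : Type*} [Fintype ι] [Fintype L] {β : L → ℝ} (hβ : IsProb β) {u : ι → L}
    (h : 0 < pw β u) (i : ι) : 0 < β (u i) := by
  refine lt_of_le_of_ne (hβ.nonneg _) fun h0 => ?_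
  unfold pw at h
  rw [prod_eq_zero (mem_univ i) h0.symm] at h
  exact lt_irrefl _ h

/-- **the averages**: the five nonnegative functions and their means -/
theorem exists_good {n k : ℕ} {L Z Γ : Type} [Fintype L] [AddCommGroup Γ]
    {Q : (Fin n → L) → ℝ} {N : L → Γ} {zl : L → Z} {β : L → ℝ} {τ b D1 U h1 h2 : ℝ}
    (S : Blk (Fin n) k) (hk : 1 ≤ k) (hβ : IsProb β)
    (hQ : IsProb Q) (hE : Exch Q) (hac : ∀ u, 0 < Q u → 0 < pw β u) (hU : 1 ≤ U)
    (hτ : TC Q ≤ τ)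
    (H1 : ∀ W : Finset (Fin n), W.card = k → hW Q N zl W = h1)
    (H2 : ∀ W : Finset (Fin n), W.card = 2 * k → hW Q N zl W = h2)
    (hb : ∀ j < k, H Q (S.xi j) - Hc Q (S.xi j) (XW (S.F j)) ≤ b)
    (hD : ∀ i, Dv Q (fun u => u i) β ≤ D1) :
    ∃ (μ' : (Fin n → L) → ℝ) (ξ : (Fin n → L) → L) (T : (Fin n → L) → Γ),
      IsProb μ' ∧ (∀ ω, 0 < μ' ω → 0 < β (ξ ω)) ∧
      H μ' T ≤ (1 + 1 / U) * (h2 + τ) ∧
      H (px μ' μ') (fun v => T v.1 + T v.2) - H μ' T
        ≤ (5 * (U + 1)) * (8 * (h2 - h1) + 14 * τ) ∧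
      I μ' ξ (fun ω => T ω + N (ξ ω)) (fun ω => zl (ξ ω))
        ≤ (5 * (U + 1)) * ((3 * (h2 - h1) + 5 * τ) / k + b) ∧
      I μ' ξ T (fun _ => ()) ≤ (5 * (U + 1)) * b ∧
      Dv μ' ξ β ≤ (5 * (U + 1)) * (D1 + b) := by
  classical
  have hk0 : (0 : ℝ) < k := by exact_mod_cast (by omega : 0 < k)
  have hU0 : 0 < U := by linarith
  have hacj : ∀ (j : ℕ) (u : Fin n → L), 0 < Q u → 0 < β (S.xi j u) := fun j u h =>
    pos_of_pw hβ (hac u h) (S.e j)
  -- the fibre laws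
  set ν : ℕ → Γ × (Fin n → Option Z) → (Fin n → L) → ℝ := fun j y => cnd Q (S.Y N zl j) y with hν
  -- the five functions of `(j, y)`
  set a0 : ℕ → Γ × (Fin n → Option Z) → ℝ := fun j y => H (ν j y) (S.T N j) with ha0
  set a1 : ℕ → Γ × (Fin n → Option Z) → ℝ := fun j y =>
    H (px (ν j y) (ν j y)) (fun v => S.T N j v.1 + S.T N j v.2) - H (ν j y) (S.T N j) with ha1
  set a2 : ℕ → Γ × (Fin n → Option Z) → ℝ := fun j y =>
    I (ν j y) (S.xi j) (fun u => S.T N j u + N (S.xi j u)) (fun u => zl (S.xi j u)) with ha2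
  set a3 : ℕ → Γ × (Fin n → Option Z) → ℝ := fun j y =>
    I (ν j y) (S.xi j) (S.T N j) (fun _ => ()) with ha3
  set a4 : ℕ → Γ × (Fin n → Option Z) → ℝ := fun j y => Dv (ν j y) (S.xi j) β with ha4
  -- means over `y`
  have M0 : ∀ j < k, ∑ u, Q u * a0 j (S.Y N zl j u) ≤ h2 + τ := by
    intro j hj
    rw [sum_fiber Q (S.Y N zl j) (a0 j), ← Hc_fiber hQ]
    exact S.avg_T hQ hE hτ H2 hj.le
  have M1 : ∀ j < k, ∑ u, Q u * a1 j (S.Y N zl j u) ≤ 8 * (h2 - h1) + 14 * τ := by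
    intro j hj
    rw [sum_fiber Q (S.Y N zl j) (a1 j)]
    simp only [ha1, mul_sub, sum_sub_distrib]
    rw [← Hc_fiber hQ, ← Hc_ccp_fiber hQ (S.Y N zl j) (fun v => S.T N j v.1 + S.T N j v.2)]
    have h := S.avg_dbl (N := N) (zl := zl) hQ hE hτ H1 H2 hj.le
    linarith
  have M2 : ∀ j < k, ∑ u, Q u * a2 j (S.Y N zl j u)
      = I Q (S.xi j) (fun u => S.T N j u + N (S.xi j u))
        (fun u => (zl (S.xi j u), (S.T N j u + S.V N j u, S.lab zl j u))) := by
    intro j hj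
    rw [sum_fiber Q (S.Y N zl j) (a2 j), ← I_fiber' hQ]
    rfl
  have M3 : ∀ j < k, ∑ u, Q u * a3 j (S.Y N zl j u) ≤ b := by
    intro j hj
    rw [sum_fiber Q (S.Y N zl j) (a3 j), ← I_fiber' hQ]
    exact (I_unit_le hQ (S.det_T N j) (S.det_Y N zl j)).trans (hb j hj)
  have M4 : ∀ j < k, ∑ u, Q u * a4 j (S.Y N zl j u) ≤ D1 + b := by
    intro j hj
    rw [sum_fiber Q (S.Y N zl j) (a4 j), Dv_fiber hQ (S.xi j) (hacj j)]
    have e1 : Hc Q (S.xi j) (XW (S.F j)) ≤ Hc Q (S.xi j) (S.Y N zl j) :=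
      Hc_anti hQ _ (S.det_Y N zl j)
    have e2 := hb j hj
    have e3 : Dv Q (S.xi j) β ≤ D1 := hD (S.e j)
    linarith
  -- Markov on pairs `(j, u)`
  obtain ⟨⟨j, u⟩, hju, hpos, hall⟩ := markov (J := ℕ × (Fin n → L)) (Λ := Fin 5)
    (range k ×ˢ univ) univ (fun p => Q p.2 / k)
    (fun p _ => div_nonneg (hQ.nonneg _) hk0.le)
    (by
      rw [sum_product]
      simp only
      rw [← sum_div, hQ.sum, sum_const, card_range, nsmul_eq_mul]
      exact mul_one_div_cancel hk0.ne')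
    (fun l p => ![a0 p.1 (S.Y N zl p.1 p.2), a1 p.1 (S.Y N zl p.1 p.2),
      a2 p.1 (S.Y N zl p.1 p.2), a3 p.1 (S.Y N zl p.1 p.2), a4 p.1 (S.Y N zl p.1 p.2)] l)
    ![h2 + τ, 8 * (h2 - h1) + 14 * τ, (3 * (h2 - h1) + 5 * τ) / k + b, b, D1 + b]
    ![1 + 1 / U, 5 * (U + 1), 5 * (U + 1), 5 * (U + 1), 5 * (U + 1)]
    (by
      intro l _ p _ hp
      have hQp : 0 < Q p.2 := by
        rcases (hQ.nonneg p.2).eq_or_lt with h0 | h0
        · rw [← h0, zero_div] at hp
          exact absurd hp (lt_irrefl _)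
        · exact h0
      have hν' : IsProb (ν p.1 (S.Y N zl p.1 p.2)) := cnd_isProb hQ (Pr_pos hQ _ hQp)
      fin_cases l
      · exact H_nonneg hν' _
      · exact sub_nonneg.mpr (H_le_px_add hν' _)
      · exact I_nonneg hν' _ _ _
      · exact I_nonneg hν' _ _ _
      · exact Dv_nonneg hν' hβ _ fun ω h => hacj _ _ (cnd_pos_Q hQ _ _ h))
    (by
      have key : ∀ (a : ℕ → Γ × (Fin n → Option Z) → ℝ) (m : ℝ),
          (∑ j ∈ range k, ∑ u, Q u * a j (S.Y N zl j u) ≤ k * m) →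
          ∑ p ∈ range k ×ˢ (univ : Finset (Fin n → L)),
            Q p.2 / k * a p.1 (S.Y N zl p.1 p.2) ≤ m := by
        intro a m h
        rw [sum_product]
        have e : ∑ x ∈ range k, ∑ y, Q (x, y).2 / k * a (x, y).1 (S.Y N zl (x, y).1 (x, y).2)
            = (∑ j ∈ range k, ∑ u, Q u * a j (S.Y N zl j u)) / k := by
          rw [sum_div]
          refine sum_congr rfl fun j _ => ?_
          rw [sum_div]
          refine sum_congr rfl fun u _ => ?_
          ring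
        rw [e, div_le_iff₀ hk0, mul_comm]
        exact h
      have cst : ∀ (a : ℕ → Γ × (Fin n → Option Z) → ℝ) (m : ℝ),
          (∀ j < k, ∑ u, Q u * a j (S.Y N zl j u) ≤ m) →
          ∑ j ∈ range k, ∑ u, Q u * a j (S.Y N zl j u) ≤ k * m := by
        intro a m h
        refine (sum_le_sum fun j hj => h j (mem_range.mp hj)).trans ?_
        rw [sum_const, card_range, nsmul_eq_mul]
      intro l _
      fin_cases l
      · exact key a0 _ (cst a0 _ M0)
      · exact key a1 _ (cst a1 _ M1)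
      · refine key a2 _ ?_
        rw [sum_congr rfl fun j hj => M2 j (mem_range.mp hj)]
        refine (S.sum_step hQ hE hτ H1 H2 hb).trans (le_of_eq ?_)
        change _ = (k : ℝ) * ((3 * (h2 - h1) + 5 * τ) / k + b)
        field_simp
      · exact key a3 _ (cst a3 _ M3)
      · exact key a4 _ (cst a4 _ M4))
    (by
      intro l _
      have p1 : 0 < 1 + 1 / U := by positivity
      have p2 : 0 < 5 * (U + 1) := by positivity
      fin_cases l
      · exact p1
      · exact p2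
      · exact p2
      · exact p2
      · exact p2)
    (by
      rw [Fin.sum_univ_five]
      change (1 + 1 / U)⁻¹ + (5 * (U + 1))⁻¹ + (5 * (U + 1))⁻¹ + (5 * (U + 1))⁻¹
        + (5 * (U + 1))⁻¹ < 1
      have e : (1 + 1 / U)⁻¹ + (5 * (U + 1))⁻¹ + (5 * (U + 1))⁻¹ + (5 * (U + 1))⁻¹
        + (5 * (U + 1))⁻¹ = (U + 4 / 5) / (U + 1) := by
        have h1 : 1 + 1 / U = (U + 1) / U := by field_simp
        rw [h1]
        have h2 : U + 1 ≠ 0 := by positivity
        field_simp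
        ring
      rw [e, div_lt_one (by positivity)]
      linarith)
  have hQp : 0 < Q u := by
    rcases (hQ.nonneg u).eq_or_lt with h0 | h0
    · simp only at hpos
      rw [← h0, zero_div] at hpos
      exact absurd hpos (lt_irrefl _)
    · exact h0
  refine ⟨ν j (S.Y N zl j u), S.xi j, S.T N j, cnd_isProb hQ (Pr_pos hQ _ hQp),
    fun ω h => hacj _ _ (cnd_pos_Q hQ _ _ h), ?_, ?_, ?_, ?_, ?_⟩
  · exact hall 0 (mem_univ _)
  · exact hall 1 (mem_univ _)
  · exact hall 2 (mem_univ _)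
  · exact hall 3 (mem_univ _)
  · exact hall 4 (mem_univ _)

/-- **AD-8**, (4.3)-(4.5) -/
theorem locExtract : LocExtract := by
  refine ⟨140, by norm_num, ?_⟩
  intro Γ L Z _ _ N zl β n k Q τ g D1 U hβ hQ hE hac hk hn hU hτ hg0 hg hD
  classical
  have hk0 : (0 : ℝ) < k := by exact_mod_cast (by omega : 0 < k)
  have hn0 : (0 : ℝ) < n := by exact_mod_cast (by omega : 0 < n)
  have hkn : 8 * (k : ℝ) ≤ n := by exact_mod_cast hn
  have hU0 : 0 < U := by linarith
  have hτ0 : 0 ≤ τ := (TC_nonneg hQ).trans hτ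
  have cf : ∀ m ≤ n, (first n m).card = m := by
    intro m hm
    have e : first n m = bl n 0 m := by
      ext i
      rw [mem_bl]
      simp [first]
    rw [e]
    exact card_bl (by omega)
  have H1 : ∀ W : Finset (Fin n), W.card = k → hW Q N zl W = hW Q N zl (first n k) :=
    fun W hW' => hW_card hE N zl (by rw [hW', cf k (by omega)])
  have H2 : ∀ W : Finset (Fin n), W.card = 2 * k →
      hW Q N zl W = hW Q N zl (first n (2 * k)) :=
    fun W hW' => hW_card hE N zl (by rw [hW', cf (2 * k) (by omega)])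
  set S : Blk (Fin n) k := blk hk (by omega : 4 * k ≤ n) with hS
  have hb : ∀ j < k, H Q (S.xi j) - Hc Q (S.xi j) (XW (S.F j)) ≤ 2 * τ / n := by
    intro j hj
    have h1 := I_letter_le hQ hE (S.eF hj) hτ
    have h2 : ((S.F j).card : ℝ) ≤ 3 * k := by exact_mod_cast S.cF hj.le
    have h3 : 0 ≤ H Q (S.xi j) - Hc Q (S.xi j) (XW (S.F j)) :=
      sub_nonneg.mpr (Hc_le_H hQ _ _)
    have h4 : ((Fintype.card (Fin n) : ℝ) - (S.F j).card) ≥ n / 2 := by
      rw [Fintype.card_fin]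
      linarith
    have h5 : (n / 2 : ℝ) * (H Q (S.xi j) - Hc Q (S.xi j) (XW (S.F j))) ≤ τ :=
      (mul_le_mul_of_nonneg_right h4 h3).trans h1
    rw [le_div_iff₀ hn0]
    linarith
  have hD1 : 0 ≤ D1 := by
    have hn1 : 0 < n := by omega
    refine le_trans (Dv_nonneg hQ hβ (fun u => u ⟨0, hn1⟩) fun u hu => ?_) (hD ⟨0, hn1⟩)
    exact pos_of_pw hβ (hac u hu) _
  obtain ⟨μ', ξ, T, p1, p2, p3, p4, p5, p6, p7⟩ :=
    exists_good S hk hβ hQ hE hac hU hτ H1 H2 hb hD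
  have hlam : 5 * (U + 1) ≤ 10 * U := by linarith
  have hlam0 : 0 ≤ 5 * (U + 1) := by linarith
  have hτn : 0 ≤ τ / n := div_nonneg hτ0 hn0.le
  have hτk : τ / n ≤ τ / (8 * k) := div_le_div_of_nonneg_left hτ0 (by positivity) hkn
  refine ⟨Fin n → L, inferInstance, μ', ξ, T, ⟨p1, p2, ?_, ?_, ?_, ?_, ?_⟩⟩
  · refine p3.trans (mul_le_mul_of_nonneg_left ?_ (by positivity))
    linarith
  · have e : H (fun v : (Fin n → L) × (Fin n → L) => μ' v.1 * μ' v.2) (fun v => T v.1 + T v.2)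
        = H (px μ' μ') (fun v => T v.1 + T v.2) := rfl
    rw [e]
    refine p4.trans ?_
    have h3 : 8 * (hW Q N zl (first n (2 * k)) - hW Q N zl (first n k)) + 14 * τ
        ≤ 14 * (g + τ) := by linarith
    calc 5 * (U + 1) * (8 * (hW Q N zl (first n (2 * k)) - hW Q N zl (first n k)) + 14 * τ)
        ≤ 5 * (U + 1) * (14 * (g + τ)) := mul_le_mul_of_nonneg_left h3 hlam0
      _ ≤ 10 * U * (14 * (g + τ)) := mul_le_mul_of_nonneg_right hlam (by linarith)
      _ = 140 * U * (g + τ) := by ring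
  · refine p5.trans ?_
    have h3 : (3 * (hW Q N zl (first n (2 * k)) - hW Q N zl (first n k)) + 5 * τ) / k
        + 2 * τ / n ≤ 6 * (g + τ) / k := by
      have h4 : 2 * τ / n ≤ τ / k := by
        have h5 : 2 * τ / n = 2 * (τ / n) := by ring
        have h6 : τ / (8 * (k : ℝ)) = (τ / k) / 8 := by
          rw [div_div, mul_comm]
        have h7 : 0 ≤ τ / k := div_nonneg hτ0 hk0.le
        rw [h5]
        rw [h6] at hτk
        linarith
      calc (3 * (hW Q N zl (first n (2 * k)) - hW Q N zl (first n k)) + 5 * τ) / k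
            + 2 * τ / n
          ≤ (3 * (hW Q N zl (first n (2 * k)) - hW Q N zl (first n k)) + 5 * τ) / k + τ / k :=
            by linarith
        _ = (3 * (hW Q N zl (first n (2 * k)) - hW Q N zl (first n k)) + 6 * τ) / k := by ring
        _ ≤ 6 * (g + τ) / k := div_le_div_of_nonneg_right (by linarith) hk0.le
    have h8 : 0 ≤ 6 * (g + τ) / k := div_nonneg (by linarith) hk0.le
    calc _ ≤ 5 * (U + 1) * (6 * (g + τ) / k) := mul_le_mul_of_nonneg_left h3 hlam0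
      _ ≤ 10 * U * (6 * (g + τ) / k) := mul_le_mul_of_nonneg_right hlam h8
      _ = 60 * (U * (g + τ) / k) := by ring
      _ ≤ 140 * (U * (g + τ) / k) := by
        refine mul_le_mul_of_nonneg_right (by norm_num) ?_
        exact div_nonneg (mul_nonneg hU0.le (by linarith)) hk0.le
      _ = _ := by ring
  · refine p6.trans ?_
    have h8 : 0 ≤ 2 * τ / n := div_nonneg (by linarith) hn0.le
    calc 5 * (U + 1) * (2 * τ / n) ≤ 10 * U * (2 * τ / n) :=
          mul_le_mul_of_nonneg_right hlam h8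
      _ = 20 * (U * (τ / n)) := by ring
      _ ≤ 140 * (U * (τ / n)) :=
        mul_le_mul_of_nonneg_right (by norm_num) (mul_nonneg hU0.le hτn)
      _ = _ := by ring
  · refine p7.trans ?_
    have h8 : 0 ≤ D1 + 2 * τ / n := add_nonneg hD1 (div_nonneg (by linarith) hn0.le)
    calc 5 * (U + 1) * (D1 + 2 * τ / n) ≤ 10 * U * (D1 + 2 * τ / n) :=
          mul_le_mul_of_nonneg_right hlam h8
      _ = 10 * (U * D1) + 20 * (U * (τ / n)) := by ring
      _ ≤ 140 * (U * D1) + 140 * (U * (τ / n)) := by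
        have h9 := mul_nonneg hU0.le hD1
        have h10 := mul_nonneg hU0.le hτn
        linarith
      _ = _ := by ring

end Vale.Agent.P091.AD.H468
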