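import Vale.Agent.P091.AD.H468.Tele

/-!
# P091, AD-8 (helper468), part b': the blocks `A, B, C, N_1, ..., N_k`
-/

set_option autoImplicit false

open Finset Real
open Vale.Agent.P065.Ent

noncomputable section

namespace Vale.Agent.P091.AD.H468

/-- blocks `A, B, C` of length `k` and letters `e 0, ..., e (k-1)` -/
structure Blk (ι : Type*) [DecidableEq ι] (k : ℕ) where
  A : Finset ι
  B : Finset ι
  C : Finset ι
  M : ℕ → Finset ι
  e : ℕ → ι
  cA : A.card = k
  cB : B.card = k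
  cC : C.card = k
  cM : ∀ j ≤ k, (M j).card = j
  M0 : M 0 = ∅
  Ms : ∀ j < k, M (j + 1) = insert (e j) (M j)
  AB : Disjoint A B
  AC : Disjoint A C
  BC : Disjoint B C
  AM : ∀ j ≤ k, Disjoint A (M j)
  BM : ∀ j ≤ k, Disjoint B (M j)
  CM : ∀ j ≤ k, Disjoint C (M j)
  eA : ∀ j < k, e j ∉ A
  eB : ∀ j < k, e j ∉ B
  eM : ∀ j < k, e j ∉ M j

/-- the interval of `m` positions starting at `a` -/
def bl (n a m : ℕ) : Finset (Fin n) := univ.filter fun i => a ≤ i.val ∧ i.val < a + m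

theorem mem_bl {n a m : ℕ} {i : Fin n} : i ∈ bl n a m ↔ a ≤ i.val ∧ i.val < a + m := by
  simp [bl]

theorem card_bl {n a m : ℕ} (h : a + m ≤ n) : (bl n a m).card = m := by
  have hlt : ∀ j : Fin m, a + j.val < n := fun j => by
    have := j.isLt
    omega
  have hinj : Function.Injective (fun j : Fin m => (⟨a + j.val, hlt j⟩ : Fin n)) := by
    intro x y hxy
    have h1 : a + x.val = a + y.val := congrArg Fin.val hxy
    exact Fin.ext (by omega)
  have e : bl n a m = (Finset.univ : Finset (Fin m)).map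
      ⟨fun j => ⟨a + j.val, hlt j⟩, hinj⟩ := by
    ext i
    rw [mem_bl, mem_map]
    constructor
    · rintro ⟨h1, h2⟩
      exact ⟨⟨i.val - a, by omega⟩, mem_univ _, Fin.ext (by simp; omega)⟩
    · rintro ⟨j, -, rfl⟩
      have := j.isLt
      simp only [Function.Embedding.coeFn_mk]
      omega
  rw [e, card_map, card_univ, Fintype.card_fin]

theorem dis_bl {n a m a' m' : ℕ} (h : a + m ≤ a') : Disjoint (bl n a m) (bl n a' m') := by
  rw [disjoint_left]
  intro i h1 h2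
  rw [mem_bl] at h1 h2
  omega

/-- the standard blocks -/
def blk {n k : ℕ} (hk : 1 ≤ k) (hn : 4 * k ≤ n) : Blk (Fin n) k where
  A := bl n 0 k
  B := bl n k k
  C := bl n (2 * k) k
  M j := bl n (3 * k) j
  e j := if h : 3 * k + j < n then ⟨3 * k + j, h⟩ else ⟨0, by omega⟩
  cA := card_bl (by omega)
  cB := card_bl (by omega)
  cC := card_bl (by omega)
  cM j hj := card_bl (by omega)
  M0 := by
    ext i
    rw [mem_bl]
    simp
  Ms j hj := by
    rw [dif_pos (by omega : 3 * k + j < n)]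
    ext i
    rw [mem_insert, mem_bl, mem_bl, Fin.ext_iff]
    simp only
    omega
  AB := dis_bl (by omega)
  AC := dis_bl (by omega)
  BC := dis_bl (by omega)
  AM j _ := dis_bl (by omega)
  BM j _ := dis_bl (by omega)
  CM j _ := dis_bl (by omega)
  eA j hj := by
    rw [dif_pos (by omega : 3 * k + j < n), mem_bl]
    simp only
    omega
  eB j hj := by
    rw [dif_pos (by omega : 3 * k + j < n), mem_bl]
    simp only
    omega
  eM j hj := by
    rw [dif_pos (by omega : 3 * k + j < n), mem_bl]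
    simp only
    omega

section bounds

variable {ι L Z Γ : Type*} [Fintype ι] [DecidableEq ι] [Fintype L] [AddCommGroup Γ]
  {Q : (ι → L) → ℝ} {N : L → Γ} {zl : L → Z} {τ : ℝ} {k : ℕ}

/-- the support of step `j` -/
def Blk.F (S : Blk ι k) (j : ℕ) : Finset ι := S.A ∪ (S.B ∪ S.M j)

/-- `T_j = S_A + N_1 + ... + N_j` -/
def Blk.T (S : Blk ι k) (N : L → Γ) (j : ℕ) (u : ι → L) : Γ := SW N S.A u + SW N (S.M j) u

/-- `V_j = S_B - N_1 - ... - N_j` -/
def Blk.V (S : Blk ι k) (N : L → Γ) (j : ℕ) (u : ι → L) : Γ := SW N S.B u - SW N (S.M j) u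

/-- the labels of `A, B, N_1, ..., N_j` -/
def Blk.lab (S : Blk ι k) (zl : L → Z) (j : ℕ) (u : ι → L) : ι → Option Z := LW zl (S.F j) u

/-- `H(T_j, V_j | lab_j)` -/
def Blk.G (S : Blk ι k) (Q : (ι → L) → ℝ) (N : L → Γ) (zl : L → Z) (j : ℕ) : ℝ :=
  Hc Q (fun u => (S.T N j u, S.V N j u)) (S.lab zl j)

theorem Blk.AF (S : Blk ι k) (j : ℕ) : S.A ⊆ S.F j := subset_union_left
theorem Blk.BF (S : Blk ι k) (j : ℕ) : S.B ⊆ S.F j :=
  subset_union_left.trans subset_union_right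
theorem Blk.MF (S : Blk ι k) (j : ℕ) : S.M j ⊆ S.F j :=
  subset_union_right.trans subset_union_right

theorem Blk.eF (S : Blk ι k) {j : ℕ} (hj : j < k) : S.e j ∉ S.F j := by
  intro h
  rcases mem_union.mp h with h | h
  · exact S.eA j hj h
  · rcases mem_union.mp h with h | h
    · exact S.eB j hj h
    · exact S.eM j hj h

theorem Blk.cF (S : Blk ι k) {j : ℕ} (hj : j ≤ k) : (S.F j).card ≤ 3 * k := by
  have h1 := card_union_le S.A (S.B ∪ S.M j)
  have h2 := card_union_le S.B (S.M j)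
  have h3 := S.cA
  have h4 := S.cB
  have h5 := S.cM j hj
  unfold Blk.F
  omega

theorem Blk.det_T (S : Blk ι k) (N : L → Γ) (j : ℕ) : Det (XW (S.F j)) (S.T N j) := by
  intro a b e
  unfold Blk.T
  rw [(det_XW (S.AF j)).trans (det_XW_SW N S.A) a b e,
    (det_XW (S.MF j)).trans (det_XW_SW N (S.M j)) a b e]

theorem Blk.det_V (S : Blk ι k) (N : L → Γ) (j : ℕ) : Det (XW (S.F j)) (S.V N j) := by
  intro a b e
  unfold Blk.V
  rw [(det_XW (S.BF j)).trans (det_XW_SW N S.B) a b e,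
    (det_XW (S.MF j)).trans (det_XW_SW N (S.M j)) a b e]

theorem Blk.det_lab (S : Blk ι k) (zl : L → Z) (j : ℕ) : Det (XW (S.F j)) (S.lab zl j) :=
  det_XW_LW zl _

/-- the sum does not depend on `j` -/
theorem Blk.TV (S : Blk ι k) (N : L → Γ) (j : ℕ) (u : ι → L) :
    S.T N j u + S.V N j u = SW N (S.A ∪ S.B) u := by
  rw [SW_union N S.AB]
  unfold Blk.T Blk.V
  abel

/-- upper bound for `T_j` -/
theorem Blk.T_le (S : Blk ι k) (hQ : IsProb Q) (hE : Exch Q) (hτ : TC Q ≤ τ) {h2 : ℝ}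
    (H2 : ∀ W : Finset ι, W.card = 2 * k → hW Q N zl W = h2) {j : ℕ} (hj : j ≤ k) :
    Hc Q (S.T N j) (S.lab zl j) ≤ h2 + τ := by
  have e1 : S.T N j = SW N (S.A ∪ S.M j) := by
    funext u
    rw [SW_union N (S.AM j hj)]
    rfl
  have e2 : Hc Q (SW N (S.A ∪ S.M j)) (S.lab zl j) ≤ hW Q N zl (S.A ∪ S.M j) :=
    Hc_anti hQ _ (det_LW zl (union_subset (S.AF j) (S.MF j)))
  have c1 : (S.A ∪ S.M j).card = k + j := by
    rw [card_union_of_disjoint (S.AM j hj), S.cA, S.cM j hj]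
  have c2 : (S.A ∪ S.B).card = 2 * k := by
    rw [card_union_of_disjoint S.AB, S.cA, S.cB]; ring
  have e3 := hW_mono_card (N := N) (zl := zl) hQ hE hτ (W := S.A ∪ S.M j) (W' := S.A ∪ S.B)
    (by rw [c1, c2]; omega)
  rw [H2 _ c2] at e3
  rw [e1]
  linarith

/-- exact bound for `T_k` -/
theorem Blk.Tk_le (S : Blk ι k) (hQ : IsProb Q) {h2 : ℝ}
    (H2 : ∀ W : Finset ι, W.card = 2 * k → hW Q N zl W = h2) :
    Hc Q (S.T N k) (S.lab zl k) ≤ h2 := by
  have e1 : S.T N k = SW N (S.A ∪ S.M k) := by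
    funext u
    rw [SW_union N (S.AM k le_rfl)]
    rfl
  have e2 : Hc Q (SW N (S.A ∪ S.M k)) (S.lab zl k) ≤ hW Q N zl (S.A ∪ S.M k) :=
    Hc_anti hQ _ (det_LW zl (union_subset (S.AF k) (S.MF k)))
  have c1 : (S.A ∪ S.M k).card = 2 * k := by
    rw [card_union_of_disjoint (S.AM k le_rfl), S.cA, S.cM k le_rfl]; ring
  rw [H2 _ c1] at e2
  rw [e1]
  exact e2

/-- the sum `T_j + V_j` -/
theorem Blk.S_le (S : Blk ι k) (hQ : IsProb Q) {h2 : ℝ}
    (H2 : ∀ W : Finset ι, W.card = 2 * k → hW Q N zl W = h2) (j : ℕ) :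
    Hc Q (fun u => S.T N j u + S.V N j u) (S.lab zl j) ≤ h2 := by
  have e1 : (fun u => S.T N j u + S.V N j u) = SW N (S.A ∪ S.B) := by
    funext u
    exact S.TV N j u
  have c2 : (S.A ∪ S.B).card = 2 * k := by
    rw [card_union_of_disjoint S.AB, S.cA, S.cB]; ring
  rw [e1, ← H2 _ c2]
  exact Hc_anti hQ _ (det_LW zl (union_subset (S.AF j) (S.BF j)))

/-- upper bound for `V_j` (Ruzsa triangle inequality with the reserve block `C`) -/
theorem Blk.V_le (S : Blk ι k) (hQ : IsProb Q) (hE : Exch Q) (hτ : TC Q ≤ τ) {h1 h2 : ℝ}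
    (H1 : ∀ W : Finset ι, W.card = k → hW Q N zl W = h1)
    (H2 : ∀ W : Finset ι, W.card = 2 * k → hW Q N zl W = h2) {j : ℕ} (hj : j ≤ k) :
    Hc Q (S.V N j) (S.lab zl j) ≤ 2 * h2 - h1 + 3 * τ := by
  set D := S.B ∪ S.M j with hD
  have hCD : Disjoint S.C D := by
    rw [hD, disjoint_union_right]
    exact ⟨S.BC.symm, S.CM j hj⟩
  -- all labels
  set W : (ι → L) → ι → Option Z := LW zl (S.C ∪ D) with hW'
  have r1 := ruzsa_dep' hQ (SW N S.B) (SW N S.C) (SW N (S.M j)) W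
  have r2 : Hc Q (fun u => SW N S.B u + SW N S.C u) W ≤ h2 := by
    have e1 : (fun u => SW N S.B u + SW N S.C u) = SW N (S.B ∪ S.C) := by
      funext u
      rw [SW_union N S.BC]
    have c : (S.B ∪ S.C).card = 2 * k := by
      rw [card_union_of_disjoint S.BC, S.cB, S.cC]; ring
    rw [e1, ← H2 _ c]
    refine Hc_anti hQ _ (det_LW zl ?_)
    exact union_subset (subset_union_left.trans subset_union_right) subset_union_left
  have r3 : Hc Q (fun u => SW N S.C u + SW N (S.M j) u) W ≤ h2 + τ := by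
    have e1 : (fun u => SW N S.C u + SW N (S.M j) u) = SW N (S.C ∪ S.M j) := by
      funext u
      rw [SW_union N (S.CM j hj)]
    have e2 : Hc Q (SW N (S.C ∪ S.M j)) W ≤ hW Q N zl (S.C ∪ S.M j) :=
      Hc_anti hQ _ (det_LW zl
        (union_subset subset_union_left (subset_union_right.trans subset_union_right)))
    have c1 : (S.C ∪ S.M j).card = k + j := by
      rw [card_union_of_disjoint (S.CM j hj), S.cC, S.cM j hj]
    have c2 : (S.A ∪ S.B).card = 2 * k := by
      rw [card_union_of_disjoint S.AB, S.cA, S.cB]; ring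
    have e3 := hW_mono_card (N := N) (zl := zl) hQ hE hτ (W := S.C ∪ S.M j) (W' := S.A ∪ S.B)
      (by rw [c1, c2]; omega)
    rw [H2 _ c2] at e3
    rw [e1]
    linarith
  have r4 : h1 - τ ≤ Hc Q (SW N S.C) (fun u => ((SW N S.B u, SW N (S.M j) u), W u)) := by
    rw [← H1 S.C S.cC]
    refine hW_ge hQ hτ hCD ?_
    intro a b e
    simp only [Prod.mk.injEq] at e ⊢
    obtain ⟨e1, e2⟩ := e
    have e3 := (det_XW (W := S.B) (W' := D) subset_union_left).trans (det_XW_SW N S.B) a b e2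
    have e4 := (det_XW (W := S.M j) (W' := D) subset_union_right).trans
      (det_XW_SW N (S.M j)) a b e2
    refine ⟨⟨e3, e4⟩, ?_⟩
    have e5 := det_XW_LW zl D a b e2
    exact det_LW_union zl (W := S.C) (V := D) (U := S.C ∪ D) (fun i hi => mem_union.mp hi) a b
      (by simp only [e1, e5])
  -- drop the labels of `C`
  have r5 : Hc Q (S.V N j) (LW zl D) - τ ≤ Hc Q (S.V N j) W := by
    refine Hc_ge_block (A := XW D) (B := XW S.C) hQ ?_ (det_XW_LW zl D) ?_
      ((I_block_le hQ hCD.symm).trans hτ)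
    · intro a b e
      unfold Blk.V
      rw [(det_XW (W := S.B) (W' := D) subset_union_left).trans (det_XW_SW N S.B) a b e,
        (det_XW (W := S.M j) (W' := D) subset_union_right).trans (det_XW_SW N (S.M j)) a b e]
    · intro a b e
      simp only [Prod.mk.injEq] at e
      obtain ⟨e1, e2⟩ := e
      have e5 := det_XW_LW zl S.C a b e2
      exact det_LW_union zl (W := S.C) (V := D) (U := S.C ∪ D) (fun i hi => mem_union.mp hi) a b
        (by simp only [e1, e5])
  have r6 : Hc Q (S.V N j) (S.lab zl j) ≤ Hc Q (S.V N j) (LW zl D) :=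
    Hc_anti hQ _ (det_LW zl subset_union_right)
  have r7 : Hc Q (S.V N j) W = Hc Q (fun u => SW N S.B u - SW N (S.M j) u) W := rfl
  rw [r7] at r5
  linarith

/-- lower bound for `G_j` -/
theorem Blk.G_ge (S : Blk ι k) (hQ : IsProb Q) (hτ : TC Q ≤ τ) {h1 : ℝ}
    (H1 : ∀ W : Finset ι, W.card = k → hW Q N zl W = h1) {j : ℕ} (hj : j ≤ k) :
    2 * h1 - 2 * τ ≤ S.G Q N zl j := by
  set Y : (ι → L) → (ι → Option Z) × (ι → Option L) := fun u => (S.lab zl j u, XW (S.M j) u)
    with hY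
  have s1 : Hc Q (fun u => (S.T N j u, S.V N j u)) Y ≤ S.G Q N zl j :=
    Hc_anti hQ _ (det_fst _ _)
  have s2 : Hc Q (fun u => (S.T N j u, S.V N j u)) Y
      = Hc Q (fun u => (SW N S.A u, SW N S.B u)) Y := by
    unfold Hc
    congr 1
    refine H_congr ?_ ?_
    · intro a b e
      simp only [hY, Prod.mk.injEq] at e ⊢
      obtain ⟨⟨e1, e2⟩, e3, e4⟩ := e
      have e5 := det_XW_SW N (S.M j) a b e4
      unfold Blk.T at e1
      unfold Blk.V at e2
      rw [e5] at e1 e2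
      exact ⟨⟨add_right_cancel e1, sub_left_injective e2⟩, e3, e4⟩
    · intro a b e
      simp only [hY, Prod.mk.injEq] at e ⊢
      obtain ⟨⟨e1, e2⟩, e3, e4⟩ := e
      have e5 := det_XW_SW N (S.M j) a b e4
      unfold Blk.T Blk.V
      rw [e1, e2, e5]
      exact ⟨⟨rfl, rfl⟩, e3, e4⟩
  have s3 := Hc_pair Q (SW N S.A) (SW N S.B) Y
  have dAR : Disjoint S.A (S.B ∪ S.M j) := by
    rw [disjoint_union_right]; exact ⟨S.AB, S.AM j hj⟩
  have dBR : Disjoint S.B (S.A ∪ S.M j) := by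
    rw [disjoint_union_right]; exact ⟨S.AB.symm, S.BM j hj⟩
  have s4 : h1 - τ ≤ Hc Q (SW N S.A) (fun u => (SW N S.B u, Y u)) := by
    rw [← H1 S.A S.cA]
    refine hW_ge hQ hτ dAR ?_
    intro a b e
    simp only [hY, Prod.mk.injEq] at e ⊢
    obtain ⟨e1, e2⟩ := e
    refine ⟨(det_XW (W := S.B) subset_union_left).trans (det_XW_SW N S.B) a b e2, ?_,
      det_XW (W := S.M j) subset_union_right a b e2⟩
    have e5 := det_XW_LW zl (S.B ∪ S.M j) a b e2
    exact det_LW_union zl (W := S.A) (V := S.B ∪ S.M j) (U := S.F j)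
      (fun i hi => mem_union.mp hi) a b (by simp only [e1, e5])
  have s5 : h1 - τ ≤ Hc Q (SW N S.B) Y := by
    rw [← H1 S.B S.cB]
    refine hW_ge hQ hτ dBR ?_
    intro a b e
    simp only [hY, Prod.mk.injEq] at e ⊢
    obtain ⟨e1, e2⟩ := e
    refine ⟨?_, det_XW (W := S.M j) subset_union_right a b e2⟩
    have e5 := det_XW_LW zl (S.A ∪ S.M j) a b e2
    refine det_LW_union zl (W := S.B) (V := S.A ∪ S.M j) (U := S.F j)
      (fun i hi => ?_) a b (by simp only [e1, e5])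
    rcases mem_union.mp hi with h | h
    · exact Or.inr (mem_union_left _ h)
    · rcases mem_union.mp h with h | h
      · exact Or.inl h
      · exact Or.inr (mem_union_right _ h)
  linarith

/-- upper bound for `G_k` -/
theorem Blk.Gk_le (S : Blk ι k) (hQ : IsProb Q) (hE : Exch Q) (hτ : TC Q ≤ τ) {h1 h2 : ℝ}
    (H1 : ∀ W : Finset ι, W.card = k → hW Q N zl W = h1)
    (H2 : ∀ W : Finset ι, W.card = 2 * k → hW Q N zl W = h2) :
    S.G Q N zl k ≤ 3 * h2 - h1 + 3 * τ := by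
  have t1 := Hc_pair_le hQ (S.T N k) (S.V N k) (S.lab zl k)
  have t2 := S.Tk_le (N := N) (zl := zl) hQ H2
  have t3 := S.V_le (N := N) (zl := zl) hQ hE hτ H1 H2 (le_refl k)
  unfold Blk.G
  linarith

/-- the letter `ξ_j` -/
def Blk.xi (S : Blk ι k) (j : ℕ) (u : ι → L) : L := u (S.e j)

theorem SW_insert (N : L → Γ) {W : Finset ι} {i : ι} (hi : i ∉ W) (u : ι → L) :
    SW N (insert i W) u = N (u i) + SW N W u := sum_insert hi

theorem Blk.T_succ (S : Blk ι k) (N : L → Γ) {j : ℕ} (hj : j < k) (u : ι → L) :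
    S.T N (j + 1) u = S.T N j u + N (S.xi j u) := by
  unfold Blk.T Blk.xi
  rw [S.Ms j hj, SW_insert N (S.eM j hj)]
  abel

theorem Blk.V_succ (S : Blk ι k) (N : L → Γ) {j : ℕ} (hj : j < k) (u : ι → L) :
    S.V N (j + 1) u = S.V N j u - N (S.xi j u) := by
  unfold Blk.V Blk.xi
  rw [S.Ms j hj, SW_insert N (S.eM j hj)]
  abel

theorem Blk.F_succ (S : Blk ι k) {j : ℕ} (hj : j < k) : S.F (j + 1) = insert (S.e j) (S.F j) := by
  unfold Blk.F
  rw [S.Ms j hj]
  ext i
  simp only [mem_union, mem_insert]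
  tauto

/-- **the step** in terms of the blocks -/
theorem Blk.step_le (S : Blk ι k) (hQ : IsProb Q) {b : ℝ} {j : ℕ} (hj : j < k)
    (hb : H Q (S.xi j) - Hc Q (S.xi j) (XW (S.F j)) ≤ b) :
    I Q (S.xi j) (fun u => S.T N j u + N (S.xi j u))
        (fun u => (zl (S.xi j u), (S.T N j u + S.V N j u, S.lab zl j u)))
      ≤ S.G Q N zl (j + 1) - S.G Q N zl j + b := by
  have hb' : H Q (S.xi j) - Hc Q (S.xi j)
      (fun u => ((S.T N j u, S.V N j u), S.lab zl j u)) ≤ b := by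
    have h1 : Hc Q (S.xi j) (XW (S.F j)) ≤ Hc Q (S.xi j)
        (fun u => ((S.T N j u, S.V N j u), S.lab zl j u)) :=
      Hc_anti hQ _ (((S.det_T N j).pair (S.det_V N j)).pair (S.det_lab zl j))
    linarith
  have h := step hQ (S.xi j) N zl (S.T N j) (S.V N j) (S.lab zl j) hb'
  have e : Hc Q (fun u => (S.T N j u + N (S.xi j u), S.V N j u - N (S.xi j u)))
      (fun u => (S.lab zl j u, zl (S.xi j u))) = S.G Q N zl (j + 1) := by
    unfold Blk.G
    have e1 : (fun u => (S.T N (j + 1) u, S.V N (j + 1) u))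
        = (fun u => (S.T N j u + N (S.xi j u), S.V N j u - N (S.xi j u))) := by
      funext u
      rw [S.T_succ N hj, S.V_succ N hj]
    rw [e1]
    refine Hc_congr (Det.refl _) (Det.refl _) ?_ ?_
    · intro a b e
      unfold Blk.lab at e ⊢
      rw [S.F_succ hj]
      exact det_LW_insert zl (S.F j) (S.e j) a b e
    · unfold Blk.lab
      rw [S.F_succ hj]
      exact (det_LW zl (subset_insert _ _)).pair (det_LW_ap zl (mem_insert_self _ _))
  rw [e] at h
  exact h

/-- **(4.4)**: sum over the letters -/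
theorem Blk.sum_step (S : Blk ι k) (hQ : IsProb Q) (hE : Exch Q) (hτ : TC Q ≤ τ) {h1 h2 b : ℝ}
    (H1 : ∀ W : Finset ι, W.card = k → hW Q N zl W = h1)
    (H2 : ∀ W : Finset ι, W.card = 2 * k → hW Q N zl W = h2)
    (hb : ∀ j < k, H Q (S.xi j) - Hc Q (S.xi j) (XW (S.F j)) ≤ b) :
    ∑ j ∈ range k, I Q (S.xi j) (fun u => S.T N j u + N (S.xi j u))
        (fun u => (zl (S.xi j u), (S.T N j u + S.V N j u, S.lab zl j u)))
      ≤ 3 * (h2 - h1) + 5 * τ + k * b := by
  have t1 := sum_le_sum fun j (hj : j ∈ range k) =>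
    S.step_le (N := N) (zl := zl) hQ (mem_range.mp hj) (hb j (mem_range.mp hj))
  rw [sum_add_distrib, sum_const, card_range, nsmul_eq_mul,
    sum_range_sub (fun j => S.G Q N zl j) k] at t1
  have t2 := S.Gk_le (N := N) (zl := zl) hQ hE hτ H1 H2
  have t3 := S.G_ge (N := N) (zl := zl) hQ hτ H1 (Nat.zero_le k)
  linarith

end bounds

end Vale.Agent.P091.AD.H468
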