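import Vale.Agent.P091.AD.Base
import Vale.Agent.P091.AD.H921.Ruz

/-!
# P091, AD-8 (helper468), part a: windows of an exchangeable law, total correlation
-/

set_option autoImplicit false

open Finset Real
open Vale.Agent.P065.Ent

noncomputable section

namespace Vale.Agent.P091.AD.H468

variable {ι L Z Γ Ω α β : Type*}

/-! ## Windows: determination -/

theorem LW_eq_iff (f : L → Z) (W : Finset ι) (u v : ι → L) :
    LW f W u = LW f W v ↔ ∀ i ∈ W, f (u i) = f (v i) := by
  classical
  constructor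
  · intro h i hi
    have := congrFun h i
    unfold LW at this
    rw [if_pos hi, if_pos hi] at this
    exact Option.some.inj this
  · intro h
    funext i
    unfold LW
    by_cases hi : i ∈ W
    · rw [if_pos hi, if_pos hi, h i hi]
    · rw [if_neg hi, if_neg hi]

/-- all letters of a window -/
def XW (W : Finset ι) (u : ι → L) : ι → Option L := LW (fun l : L => l) W u

theorem XW_eq_iff (W : Finset ι) (u v : ι → L) : XW W u = XW W v ↔ ∀ i ∈ W, u i = v i :=
  LW_eq_iff _ W u v

theorem det_LW (f : L → Z) {W W' : Finset ι} (h : W ⊆ W') : Det (LW f W') (LW f W) := by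
  intro a b e
  rw [LW_eq_iff] at e ⊢
  exact fun i hi => e i (h hi)

theorem det_XW {W W' : Finset ι} (h : W ⊆ W') :
    Det (XW W' : (ι → L) → ι → Option L) (XW W) := det_LW _ h

theorem det_XW_LW (f : L → Z) (W : Finset ι) : Det (XW W) (LW f W) := by
  intro a b e
  rw [XW_eq_iff] at e
  rw [LW_eq_iff]
  exact fun i hi => by rw [e i hi]

theorem det_XW_SW [AddCommMonoid Γ] (N : L → Γ) (W : Finset ι) : Det (XW W) (SW N W) := by
  intro a b e
  rw [XW_eq_iff] at e
  exact sum_congr rfl fun i hi => by rw [e i hi]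

theorem det_XW_ap {W : Finset ι} {i : ι} (h : i ∈ W) :
    Det (XW W : (ι → L) → ι → Option L) (fun u => u i) := by
  intro a b e
  rw [XW_eq_iff] at e
  exact e i h

theorem det_LW_ap (f : L → Z) {W : Finset ι} {i : ι} (h : i ∈ W) :
    Det (LW f W) (fun u => f (u i)) := by
  intro a b e
  rw [LW_eq_iff] at e
  exact e i h

/-- the labels of two windows determine the labels of a window contained in the union -/
theorem det_LW_union (f : L → Z) {W V U : Finset ι} (h : ∀ i ∈ U, i ∈ W ∨ i ∈ V) :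
    Det (fun u => (LW f W u, LW f V u)) (LW f U) := by
  intro a b e
  simp only [Prod.mk.injEq] at e
  obtain ⟨e1, e2⟩ := e
  rw [LW_eq_iff] at e1 e2 ⊢
  intro i hi
  rcases h i hi with h | h
  · exact e1 i h
  · exact e2 i h

theorem det_XW_union {W V U : Finset ι} (h : ∀ i ∈ U, i ∈ W ∨ i ∈ V) :
    Det (fun u : ι → L => (XW W u, XW V u)) (XW U) := det_LW_union _ h

theorem det_LW_insert [DecidableEq ι] (f : L → Z) (W : Finset ι) (i : ι) :
    Det (fun u => (LW f W u, f (u i))) (LW f (insert i W)) := by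
  intro a b e
  simp only [Prod.mk.injEq] at e
  obtain ⟨e1, e2⟩ := e
  rw [LW_eq_iff] at e1 ⊢
  intro j hj
  rcases mem_insert.mp hj with h | h
  · rw [h]; exact e2
  · exact e1 j h

theorem det_XW_insert [DecidableEq ι] (W : Finset ι) (i : ι) :
    Det (fun u : ι → L => (u i, XW W u)) (XW (insert i W)) := by
  intro a b e
  simp only [Prod.mk.injEq] at e
  obtain ⟨e1, e2⟩ := e
  rw [XW_eq_iff] at e2 ⊢
  intro j hj
  rcases mem_insert.mp hj with h | h
  · rw [h]; exact e1
  · exact e2 j h

theorem det_XW_univ [Fintype ι] : Det (XW (univ : Finset ι) : (ι → L) → ι → Option L)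
    (fun u => u) := by
  intro a b e
  rw [XW_eq_iff] at e
  funext i
  exact e i (mem_univ i)

/-! ## Entropies of windows and the total correlation -/

section ent

variable [Fintype ι] [DecidableEq ι] [Fintype L] {Q : (ι → L) → ℝ}

theorem Hc_XW_le (hQ : IsProb Q) (W : Finset ι) (Y : (ι → L) → β) :
    Hc Q (XW W) Y ≤ ∑ i ∈ W, Hc Q (fun u => u i) Y := by
  induction W using Finset.induction_on with
  | empty =>
    rw [sum_empty]
    refine le_of_eq (Hc_eq_zero ?_)
    intro a b _
    rw [XW_eq_iff]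
    simp
  | insert i W hi ih =>
    rw [sum_insert hi]
    have h1 : Hc Q (XW (insert i W)) Y ≤ Hc Q (fun u : ι → L => (u i, XW W u)) Y :=
      Hc_mono_left hQ (det_XW_insert W i)
    have h2 := Hc_pair_le hQ (fun u : ι → L => u i) (XW W) Y
    linarith

theorem H_XW_le (hQ : IsProb Q) (W : Finset ι) :
    H Q (XW W) ≤ ∑ i ∈ W, H Q (fun u => u i) := by
  have h := Hc_XW_le hQ W (fun _ => ())
  simp only [Hc_const hQ] at h
  exact h

/-- the information between a letter and a window, for all letters outside the window -/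
theorem sum_I_le_TC (hQ : IsProb Q) (W : Finset ι) :
    ∑ i ∈ Wᶜ, (H Q (fun u => u i) - Hc Q (fun u => u i) (XW W)) ≤ TC Q := by
  unfold TC
  have h1 : H Q (fun u => u) ≤ H Q (fun u : ι → L => (XW Wᶜ u, XW W u)) := by
    refine H_mono hQ ((det_XW_union (U := univ) fun i _ => ?_).trans det_XW_univ)
    by_cases h : i ∈ W
    · exact Or.inr h
    · exact Or.inl (mem_compl.mpr h)
  rw [H_pair] at h1
  have h2 := H_XW_le hQ W
  have h3 := Hc_XW_le hQ Wᶜ (XW W)
  have h4 : ∑ i, H Q (fun u => u i) = ∑ i ∈ W, H Q (fun u => u i)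
      + ∑ i ∈ Wᶜ, H Q (fun u => u i) := (sum_add_sum_compl W _).symm
  rw [sum_sub_distrib, h4]
  linarith

theorem TC_nonneg (hQ : IsProb Q) : 0 ≤ TC Q := by
  refine le_trans (sum_nonneg fun i _ => ?_) (sum_I_le_TC hQ (∅ : Finset ι))
  have := Hc_le_H hQ (fun u : ι → L => u i) (XW (∅ : Finset ι))
  linarith

/-- disjoint windows are almost independent -/
theorem I_block_le (hQ : IsProb Q) {V W : Finset ι} (hd : Disjoint V W) :
    H Q (XW V) - Hc Q (XW V) (XW W) ≤ TC Q := by
  unfold TC
  set R := (V ∪ W)ᶜ with hR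
  have h1 : H Q (fun u => u) ≤ H Q (fun u : ι → L => (XW R u, (XW V u, XW W u))) := by
    refine H_mono hQ (Det.trans ?_ det_XW_univ)
    intro a b e
    simp only [Prod.mk.injEq] at e
    obtain ⟨e1, e2, e3⟩ := e
    rw [XW_eq_iff] at e1 e2 e3 ⊢
    intro i _
    by_cases h : i ∈ V
    · exact e2 i h
    by_cases h' : i ∈ W
    · exact e3 i h'
    · exact e1 i (mem_compl.mpr fun hh => (mem_union.mp hh).elim h h')
  have h2 := H_pair_le hQ (XW R : (ι → L) → ι → Option L) (fun u => (XW V u, XW W u))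
  have h3 := H_XW_le hQ R
  have h4 := H_XW_le hQ V
  have h5 := H_XW_le hQ W
  have h6 : ∑ i, H Q (fun u => u i) = (∑ i ∈ V, H Q (fun u => u i)
      + ∑ i ∈ W, H Q (fun u => u i)) + ∑ i ∈ R, H Q (fun u => u i) := by
    rw [← sum_union hd, hR, sum_add_sum_compl]
  have h7 := H_pair Q (XW V : (ι → L) → ι → Option L) (XW W)
  rw [h6]
  linarith

end ent

/-! ## Exchangeability -/

section exch

theorem H_equiv [Fintype Ω] {μ : Ω → ℝ} (e : Ω ≃ Ω) (he : ∀ ω, μ (e ω) = μ ω) (X : Ω → α) :
    H μ (fun ω => X (e ω)) = H μ X := by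
  classical
  have h1 : ∀ x, Pr μ (fun ω => X (e ω)) x = Pr μ X x := by
    intro x
    unfold Pr
    rw [← Equiv.sum_comp e (fun ω => if X ω = x then μ ω else 0)]
    exact sum_congr rfl fun ω _ => by rw [he]
  exact H_eq_of_law h1

theorem Hc_equiv [Fintype Ω] {μ : Ω → ℝ} (e : Ω ≃ Ω) (he : ∀ ω, μ (e ω) = μ ω) (X : Ω → α)
    (Y : Ω → β) : Hc μ (fun ω => X (e ω)) (fun ω => Y (e ω)) = Hc μ X Y := by
  unfold Hc
  rw [H_equiv e he Y, H_equiv e he (fun ω => (X ω, Y ω))]

/-- relabelling of the positions -/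
def rel (σ : Equiv.Perm ι) : (ι → L) ≃ (ι → L) where
  toFun u := fun i => u (σ i)
  invFun u := fun i => u (σ.symm i)
  left_inv u := by funext i; simp
  right_inv u := by funext i; simp

variable [Fintype ι] [DecidableEq ι] [Fintype L] {Q : (ι → L) → ℝ}

theorem hW_perm [AddCommMonoid Γ] (hE : Exch Q) (N : L → Γ) (zl : L → Z) (σ : Equiv.Perm ι)
    (W : Finset ι) : hW Q N zl (W.map σ.toEmbedding) = hW Q N zl W := by
  unfold hW
  rw [← Hc_equiv (μ := Q) (rel σ) (fun u => hE σ u) (SW N W) (LW zl W)]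
  have e1 : ∀ u : ι → L, SW N W (rel σ u) = SW N (W.map σ.toEmbedding) u := by
    intro u
    unfold SW rel
    rw [sum_map]
    rfl
  have e2 : ∀ u v : ι → L, LW zl W (rel σ u) = LW zl W (rel σ v) ↔
      LW zl (W.map σ.toEmbedding) u = LW zl (W.map σ.toEmbedding) v := by
    intro u v
    rw [LW_eq_iff, LW_eq_iff]
    constructor
    · intro h i hi
      obtain ⟨j, hj, rfl⟩ := mem_map.mp hi
      exact h j hj
    · intro h i hi
      exact h (σ i) (mem_map.mpr ⟨i, hi, rfl⟩)
  refine Hc_congr ?_ ?_ ?_ ?_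
  · intro a b e; exact (e1 a).trans (Eq.trans e (e1 b).symm)
  · intro a b e; exact (e1 a).symm.trans (Eq.trans e (e1 b))
  · intro a b e; exact (e2 a b).mpr e
  · intro a b e; exact (e2 a b).mp e

/-- the entropy of a window depends only on its length -/
theorem hW_card [AddCommMonoid Γ] (hE : Exch Q) (N : L → Γ) (zl : L → Z) {W W' : Finset ι}
    (h : W.card = W'.card) : hW Q N zl W = hW Q N zl W' := by
  have e : W ≃ W' := Finset.equivOfCardEq h
  have e' : {x // x ∈ W} ≃ {x // x ∈ W'} := e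
  have hm : W.map (e'.extendSubtype).toEmbedding = W' := by
    apply Finset.eq_of_subset_of_card_le
    · intro x hx
      obtain ⟨y, hy, rfl⟩ := mem_map.mp hx
      exact e'.extendSubtype_mem y hy
    · rw [card_map, h]
  rw [← hm, hW_perm hE]

/-- a letter and a window: symmetric in the letter -/
theorem I_letter_eq (hE : Exch Q) {W : Finset ι} {i j : ι} (hi : i ∉ W) (hj : j ∉ W) :
    H Q (fun u => u i) - Hc Q (fun u => u i) (XW W)
      = H Q (fun u => u j) - Hc Q (fun u => u j) (XW W) := by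
  have e1 := H_equiv (μ := Q) (rel (Equiv.swap i j)) (fun u => hE _ u) (fun u : ι → L => u i)
  have e2 := Hc_equiv (μ := Q) (rel (Equiv.swap i j)) (fun u => hE _ u) (fun u : ι → L => u i)
    (XW W)
  have e3 : (fun u : ι → L => (rel (Equiv.swap i j) u) i) = fun u => u j := by
    funext u
    show u (Equiv.swap i j i) = u j
    rw [Equiv.swap_apply_left]
  have e4 : (fun u : ι → L => XW W (rel (Equiv.swap i j) u)) = XW W := by
    funext u
    rw [XW_eq_iff]
    intro k hk
    show u (Equiv.swap i j k) = u k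
    rw [Equiv.swap_apply_of_ne_of_ne]
    · rintro rfl; exact hi hk
    · rintro rfl; exact hj hk
  rw [e3] at e1 e2
  rw [e4] at e2
  rw [← e1, ← e2]

/-- **a letter is almost independent of a short window** -/
theorem I_letter_le (hQ : IsProb Q) (hE : Exch Q) {W : Finset ι} {i : ι} (hi : i ∉ W) {τ : ℝ}
    (hτ : TC Q ≤ τ) :
    ((Fintype.card ι : ℝ) - W.card) * (H Q (fun u => u i) - Hc Q (fun u => u i) (XW W)) ≤ τ := by
  have h := sum_I_le_TC hQ W
  rw [sum_congr rfl fun j hj => (I_letter_eq hE hi (mem_compl.mp hj)).symm, sum_const,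
    card_compl, nsmul_eq_mul, Nat.cast_sub (card_le_univ W)] at h
  exact h.trans hτ

end exch

end Vale.Agent.P091.AD.H468
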