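import Vale.Agent.P091.AD.H468.Exc

/-!
# P091, AD-8 (helper468), part b: blocks, near monotonicity, the step inequality (4.4)
-/

set_option autoImplicit false

open Finset Real
open Vale.Agent.P065.Ent

noncomputable section

namespace Vale.Agent.P091.AD.H468

variable {Ω α β γ δ : Type*} [Fintype Ω] {μ : Ω → ℝ}

/-! ## General inequalities -/

/-- `I(X;Y|Z) ≤ I(A;B)` if `A` determines `X, Z` and `B` determines `Y` -/
theorem I_le_block {A : Ω → α} {B : Ω → β} {ρ σ θ : Type*} {X : Ω → ρ} {Y : Ω → σ} {Z : Ω → θ}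
    (hμ : IsProb μ) (h1 : Det A X) (h2 : Det B Y) (h3 : Det A Z) :
    I μ X Y Z ≤ H μ A - Hc μ A B := by
  -- `I(X;Y|Z) ≤ I(A;B|Z) = H(A|Z) - H(A|B,Z)`, and `H(A|Z) = H(A) - H(Z)`
  have e1 : I μ X Y Z ≤ I μ A B Z :=
    (I_mono_left hμ Y Z h1).trans (I_mono_right hμ A Z h2)
  have e2 : Hc μ A Z = H μ A - H μ Z :=
    Hc_eq (X' := A) (Det.refl A) h3 (det_fst A Z)
  have e3 : Hc μ A (fun ω => (B ω, Z ω)) = Hc μ A B - Hc μ Z B := by
    have h := Hc_pair μ A Z B
    have h4 : Hc μ (fun ω => (A ω, Z ω)) B = Hc μ A B :=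
      Hc_congr (det_fst A Z) ((Det.refl A).pair h3) (Det.refl B) (Det.refl B)
    have h5 : Hc μ A (fun ω => (Z ω, B ω)) = Hc μ A (fun ω => (B ω, Z ω)) :=
      Hc_congr (Det.refl A) (Det.refl A) (det_swap Z B) (det_swap B Z)
    rw [h4, h5] at h
    linarith
  have e4 := Hc_le_H hμ Z B
  have e5 : I μ A B Z = Hc μ A Z - Hc μ A (fun ω => (B ω, Z ω)) := rfl
  rw [e2, e3] at e5
  linarith

/-- lower bound for a conditional entropy given a nearly independent variable -/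
theorem Hc_ge_block {A : Ω → α} {B : Ω → β} {ρ θ σ : Type*} {X : Ω → ρ} {Z : Ω → θ} {Y : Ω → σ}
    (hμ : IsProb μ) (h1 : Det A X) (h3 : Det A Z) (h2 : Det (fun ω => (Z ω, B ω)) Y) {τ : ℝ}
    (hτ : H μ A - Hc μ A B ≤ τ) : Hc μ X Z - τ ≤ Hc μ X Y := by
  have h := I_le_block (A := A) (B := B) (X := X) (Y := B) (Z := Z) hμ h1 (Det.refl B) h3
  have e1 : Hc μ X (fun ω => (B ω, Z ω)) ≤ Hc μ X Y :=
    Hc_anti hμ X ((det_swap B Z).trans h2)
  unfold I at h
  linarith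

/-- **the step inequality (4.4)**: absorption of a letter, given the sum `T + V` -/
theorem step {L' Γ : Type*} [AddCommGroup Γ] (hμ : IsProb μ) (ξ : Ω → L') (N : L' → Γ)
    (z : L' → γ) (T V : Ω → Γ) (W : Ω → δ) {b : ℝ}
    (hb : H μ ξ - Hc μ ξ (fun ω => ((T ω, V ω), W ω)) ≤ b) :
    I μ ξ (fun ω => T ω + N (ξ ω)) (fun ω => (z (ξ ω), (T ω + V ω, W ω)))
      ≤ Hc μ (fun ω => (T ω + N (ξ ω), V ω - N (ξ ω))) (fun ω => (W ω, z (ξ ω)))
        - Hc μ (fun ω => (T ω, V ω)) W + b := by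
  set T' : Ω → Γ := fun ω => T ω + N (ξ ω) with hT'
  set V' : Ω → Γ := fun ω => V ω - N (ξ ω) with hV'
  set S : Ω → Γ := fun ω => T ω + V ω with hS
  set W' : Ω → δ × γ := fun ω => (W ω, z (ξ ω)) with hW'
  set Y : Ω → γ × (Γ × δ) := fun ω => (z (ξ ω), (S ω, W ω)) with hY
  have e0 : I μ ξ T' Y = Hc μ T' Y - Hc μ T' (fun ω => (ξ ω, Y ω)) := by
    rw [I_symm]; rfl
  -- `H(T'|Y) = H(T',V'|W') - H(S|W')`
  have e1 : Hc μ T' Y = Hc μ (fun ω => (T' ω, V' ω)) W' - Hc μ S W' := by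
    have h1 := Hc_pair μ T' S W'
    have h2 : Hc μ T' (fun ω => (S ω, W' ω)) = Hc μ T' Y := by
      refine Hc_congr (Det.refl _) (Det.refl _) ?_ ?_
      · intro a c e
        simp only [hW', hY, Prod.mk.injEq] at e ⊢
        exact ⟨e.2.2, e.1, e.2.1⟩
      · intro a c e
        simp only [hW', hY, Prod.mk.injEq] at e ⊢
        exact ⟨e.2.1, e.2.2, e.1⟩
    have h3 : Hc μ (fun ω => (T' ω, S ω)) W' = Hc μ (fun ω => (T' ω, V' ω)) W' := by
      refine Hc_congr ?_ ?_ (Det.refl _) (Det.refl _)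
      · intro a c e
        simp only [hT', hV', hS, Prod.mk.injEq] at e ⊢
        refine ⟨e.1, ?_⟩
        have : V a - N (ξ a) = (T a + V a) - (T a + N (ξ a)) := by abel
        rw [this, e.1, e.2]; abel
      · intro a c e
        simp only [hT', hV', hS, Prod.mk.injEq] at e ⊢
        refine ⟨e.1, ?_⟩
        have : T a + V a = (T a + N (ξ a)) + (V a - N (ξ a)) := by abel
        rw [this, e.1, e.2]; abel
    rw [h2, h3] at h1
    linarith
  -- `H(T'|ξ,Y) = H(T,V|ξ,W) - H(S|ξ,W)`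
  have e2 : Hc μ T' (fun ω => (ξ ω, Y ω)) = Hc μ (fun ω => (T ω, V ω)) (fun ω => (ξ ω, W ω))
      - Hc μ S (fun ω => (ξ ω, W ω)) := by
    have h1 := Hc_pair μ T S (fun ω => (ξ ω, W ω))
    have h2 : Hc μ T (fun ω => (S ω, (ξ ω, W ω))) = Hc μ T' (fun ω => (ξ ω, Y ω)) := by
      unfold Hc
      congr 1
      · refine H_congr ?_ ?_
        · intro a c e
          simp only [hT', hY, Prod.mk.injEq] at e ⊢
          obtain ⟨e1, e2, e3, e4⟩ := e
          rw [e3, e1]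
          exact ⟨rfl, rfl, rfl, e2, e4⟩
        · intro a c e
          simp only [hT', hY, Prod.mk.injEq] at e ⊢
          obtain ⟨e1, e2, e3, e4, e5⟩ := e
          rw [e2] at e1
          exact ⟨add_right_cancel e1, e4, e2, e5⟩
      · refine H_congr ?_ ?_
        · intro a c e
          simp only [hY, Prod.mk.injEq] at e ⊢
          obtain ⟨e1, e2, e3⟩ := e
          rw [e2]
          exact ⟨rfl, rfl, e1, e3⟩
        · intro a c e
          simp only [hY, Prod.mk.injEq] at e ⊢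
          exact ⟨e.2.2.1, e.1, e.2.2.2⟩
    have h3 : Hc μ (fun ω => (T ω, S ω)) (fun ω => (ξ ω, W ω))
        = Hc μ (fun ω => (T ω, V ω)) (fun ω => (ξ ω, W ω)) := by
      refine Hc_congr ?_ ?_ (Det.refl _) (Det.refl _)
      · intro a c e
        simp only [hS, Prod.mk.injEq] at e ⊢
        obtain ⟨e1, e2⟩ := e
        rw [e1] at e2
        exact ⟨e1, add_left_cancel e2⟩
      · intro a c e
        simp only [hS, Prod.mk.injEq] at e ⊢
        rw [e.1, e.2]
        exact ⟨rfl, rfl⟩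
    rw [h2, h3] at h1
    linarith
  have e3 : Hc μ S (fun ω => (ξ ω, W ω)) ≤ Hc μ S W' := by
    refine Hc_anti hμ S ?_
    intro a c e
    simp only [hW', Prod.mk.injEq] at e ⊢
    rw [e.1]
    exact ⟨e.2, rfl⟩
  have e4 : Hc μ (fun ω => (T ω, V ω)) W - Hc μ (fun ω => (T ω, V ω)) (fun ω => (ξ ω, W ω))
      ≤ b := by
    have h1 : I μ (fun ω => (T ω, V ω)) ξ W = Hc μ (fun ω => (T ω, V ω)) W
        - Hc μ (fun ω => (T ω, V ω)) (fun ω => (ξ ω, W ω)) := rfl
    have h2 := I_le_block (A := fun ω => ((T ω, V ω), W ω)) (B := ξ) (X := fun ω => (T ω, V ω))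
      (Y := ξ) (Z := W) hμ (det_fst _ _) (Det.refl ξ) (det_snd _ _)
    have h3 : H μ (fun ω => ((T ω, V ω), W ω)) - Hc μ (fun ω => ((T ω, V ω), W ω)) ξ
        = H μ ξ - Hc μ ξ (fun ω => ((T ω, V ω), W ω)) := by
      unfold Hc
      have := H_swap μ (fun ω => ((T ω, V ω), W ω)) ξ
      linarith
    rw [← h1]
    linarith
  rw [e0, e1, e2]
  linarith

/-! ## Window sums under a nearly independent law -/

section win

variable {ι L Z Γ : Type*} [Fintype ι] [DecidableEq ι] [Fintype L] [AddCommGroup Γ]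
  {Q : (ι → L) → ℝ} {N : L → Γ} {zl : L → Z} {τ : ℝ}

/-- the entropy of a window sum given the labels and other letters -/
theorem hW_ge (hQ : IsProb Q) (hτ : TC Q ≤ τ) {W R : Finset ι} (hd : Disjoint W R) {σ : Type*}
    {Y : (ι → L) → σ} (hY : Det (fun u => (LW zl W u, XW R u)) Y) :
    hW Q N zl W - τ ≤ Hc Q (SW N W) Y :=
  Hc_ge_block hQ (det_XW_SW N W) (det_XW_LW zl W) hY ((I_block_le hQ hd).trans hτ)

theorem SW_union (N : L → Γ) {W R : Finset ι} (hd : Disjoint W R) (u : ι → L) :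
    SW N (W ∪ R) u = SW N W u + SW N R u := sum_union hd

/-- near monotonicity -/
theorem hW_mono (hQ : IsProb Q) (hτ : TC Q ≤ τ) {W W' : Finset ι} (h : W ⊆ W') :
    hW Q N zl W ≤ hW Q N zl W' + τ := by
  have hd : Disjoint W (W' \ W) := disjoint_sdiff
  have h1 := hW_ge (N := N) (zl := zl) hQ hτ hd (Y := fun u => (LW zl W u, XW (W' \ W) u))
    (Det.refl _)
  have h2 : Hc Q (SW N W') (fun u => (LW zl W u, XW (W' \ W) u)) ≤ hW Q N zl W' := by
    refine Hc_anti hQ _ ?_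
    intro a b e
    simp only [Prod.mk.injEq] at e
    obtain ⟨e1, e2⟩ := e
    rw [LW_eq_iff] at e1 ⊢
    rw [XW_eq_iff] at e2
    intro i hi
    by_cases hiW : i ∈ W
    · exact e1 i hiW
    · rw [e2 i (mem_sdiff.mpr ⟨hi, hiW⟩)]
  have h3 : Hc Q (SW N W') (fun u => (LW zl W u, XW (W' \ W) u))
      = Hc Q (SW N W) (fun u => (LW zl W u, XW (W' \ W) u)) := by
    have e1 : SW N W' = fun u => SW N W u + SW N (W' \ W) u := by
      funext u
      rw [← SW_union N hd, union_sdiff_of_subset h]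
    rw [e1]
    exact Hc_add_det Q _ _ _ ((det_snd _ _).trans (det_XW_SW N _))
  rw [h3] at h2
  linarith

theorem hW_mono_card (hQ : IsProb Q) (hE : Exch Q) (hτ : TC Q ≤ τ) {W W' : Finset ι}
    (h : W.card ≤ W'.card) : hW Q N zl W ≤ hW Q N zl W' + τ := by
  obtain ⟨V, hV, hc⟩ := exists_subset_card_eq h
  rw [← hW_card hE N zl hc]
  exact hW_mono hQ hτ hV

end win

end Vale.Agent.P091.AD.H468
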